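import Vale.Agent.H60.Radial.Main

/-!
# P225: radial modes of polynomial growth on rotationally symmetric manifolds with `Ric ≥ 0`

On `ℝ^n`, `n ≥ 3`, with the rotationally symmetric metric `g = dr^2 + f(r)^2 g_S` (`f 0 = 0`,
`f' 0 = 1`, `f > 0` on `(0, ∞)`), the Ricci curvature is nonnegative iff `f'' ≤ 0`, and a
function `a(r) Y(θ)`, with `Y` a spherical harmonic of degree `j`, is harmonic iff
`a'' + (n-1) (f'/f) a' - j (j+n-2) a / f^2 = 0`.  We prove that such a mode which is bounded near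
the pole and is `O(r^d)` at infinity vanishes identically unless `j ≤ d`.  The proof
(`Vale.Agent.H60.Radial`) shows that `a(r)^2 / r^(2j)` is nondecreasing.
-/

namespace Vale.Agent.Results.P225.A_RotSymModes

theorem result (n j : ℕ) (hn : 3 ≤ n) (f a : ℝ → ℝ) (d B C : ℝ)
    (hf : ContDiff ℝ 2 f) (hf0 : f 0 = 0) (hf1 : deriv f 0 = 1)
    (hfpos : ∀ r, 0 < r → 0 < f r) (hfconc : ∀ r, 0 ≤ r → deriv (deriv f) r ≤ 0)
    (ha : ContDiffOn ℝ 2 a (Set.Ioi 0))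
    (hode : ∀ r, 0 < r → deriv (deriv a) r + ((n:ℝ) - 1) * (deriv f r / f r) * deriv a r
      - (j:ℝ) * (j + n - 2) * a r / (f r) ^ 2 = 0)
    (hbdd : ∀ r, 0 < r → r ≤ 1 → |a r| ≤ B)
    (hgrow : ∀ r, 1 ≤ r → |a r| ≤ C * r ^ d) :
    (j : ℝ) ≤ d ∨ ∀ r, 0 < r → a r = 0 :=
  Vale.Agent.H60.Radial.mode_growth n j hn f a d B C hf hf0 hf1 hfpos hfconc ha hode hbdd hgrow

end Vale.Agent.Results.P225.A_RotSymModes
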