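import Vale.Agent.H60.Rot.Main

/-!
# P225: Yau's dimension comparison on rotationally symmetric manifolds with `Ric ≥ 0`

On `ℝ^n`, `n ≥ 3`, with the rotationally symmetric metric `g = dr^2 + f(r)^2 g_S`, where `g_S` is
the round metric of the unit sphere, `f 0 = 0`, `f' 0 = 1`, `f > 0` on `(0, ∞)` and `f'' ≤ 0`
(that is `Ric ≥ 0`), the Laplacian at `x ≠ 0`, `r = |x|`, is

`Δ_g u = ∂_r² u + (n-1) (f'(r)/f(r)) ∂_r u + f(r)^(-2) Δ_S u`

(`Vale.Agent.H60.Rot.rotLap`, in Cartesian coordinates), and the distance to the pole is `|x|`.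
We prove: any linearly independent family of `m` harmonic functions of polynomial growth of
order at most `d` has `m ≤ dim {harmonic polynomials on ℝ^n of degree ≤ ⌊d⌋}`.  The proof
(`Vale.Agent.H60.Rot`, `Vale.Agent.H60.Radial`) expands in spherical harmonics: the mode of `u`
against a homogeneous harmonic polynomial of degree `j` solves the radial mode equation, for
which `a(r)^2 / r^(2j)` is nondecreasing.
-/

namespace Vale.Agent.Results.P225.B_RotSymDimension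

theorem result (n : ℕ) (hn : 3 ≤ n) (f : ℝ → ℝ) (hf : ContDiff ℝ 2 f) (hf0 : f 0 = 0)
    (hf1 : deriv f 0 = 1) (hfpos : ∀ r, 0 < r → 0 < f r)
    (hfconc : ∀ r, 0 ≤ r → deriv (deriv f) r ≤ 0)
    (d : ℝ) (hd : 0 ≤ d) (m : ℕ) (u : Fin m → EuclideanSpace ℝ (Fin n) → ℝ)
    (hu : ∀ l, ContDiff ℝ 2 (u l))
    (hharm : ∀ l, ∀ x : EuclideanSpace ℝ (Fin n), x ≠ 0 →
      Vale.Agent.H60.Rot.rotLap n f (u l) x = 0)
    (hgrow : ∀ l, ∃ C : ℝ, ∀ x : EuclideanSpace ℝ (Fin n), |u l x| ≤ C * (1 + ‖x‖) ^ d)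
    (hli : LinearIndependent ℝ u) :
    m ≤ Module.finrank ℝ (Vale.Agent.H60.Rot.harmPoly n ⌊d⌋₊) :=
  Vale.Agent.H60.Rot.yau_rot n hn f hf hf0 hf1 hfpos hfconc d hd m u hu hharm hgrow hli

end Vale.Agent.Results.P225.B_RotSymDimension
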