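import Vale.Agent.H60.Rot.Main
import Vale.Agent.H60.Radial.Main

/-!
# P225: Yau's dimension comparison on rotationally symmetric manifolds, and its radial step

The conjunction of the two statements `B_RotSymDimension` and `A_RotSymModes`, each with its own
quantifiers.

1. On `ℝ^n`, `n ≥ 3`, with the rotationally symmetric metric `g = dr^2 + f(r)^2 g_S` (`f 0 = 0`,
   `f' 0 = 1`, `f > 0` on `(0, ∞)`, `f'' ≤ 0`, that is `Ric ≥ 0`), every linearly independent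
   family of `C^2` functions that solve `Δ_g u = 0` away from the pole (`rotLap`, in Cartesian
   coordinates) and are `O((1 + |x|)^d)` has at most `dim (harmPoly n ⌊d⌋)` members, the number of
   linearly independent harmonic polynomials of degree at most `⌊d⌋` on `ℝ^n`.
2. A solution `a` of the radial equation `a'' + (n-1) (f'/f) a' - j (j+n-2) a / f^2 = 0` on
   `(0, ∞)` that is bounded near `0` and `O(r^d)` at infinity vanishes identically unless `j ≤ d`.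

The proofs are in `Vale.Agent.H60.Rot` and `Vale.Agent.H60.Radial`.
-/

namespace Vale.Agent.Results.P225.C_RotSymDimensionAndModes

theorem result :
    (∀ (n : ℕ), 3 ≤ n → ∀ (f : ℝ → ℝ), ContDiff ℝ 2 f → f 0 = 0 → deriv f 0 = 1 →
      (∀ r, 0 < r → 0 < f r) → (∀ r, 0 ≤ r → deriv (deriv f) r ≤ 0) →
      ∀ (d : ℝ), 0 ≤ d → ∀ (m : ℕ) (u : Fin m → EuclideanSpace ℝ (Fin n) → ℝ),
        (∀ l, ContDiff ℝ 2 (u l)) →
        (∀ l, ∀ x : EuclideanSpace ℝ (Fin n), x ≠ 0 →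
          Vale.Agent.H60.Rot.rotLap n f (u l) x = 0) →
        (∀ l, ∃ C : ℝ, ∀ x : EuclideanSpace ℝ (Fin n), |u l x| ≤ C * (1 + ‖x‖) ^ d) →
        LinearIndependent ℝ u →
        m ≤ Module.finrank ℝ (Vale.Agent.H60.Rot.harmPoly n ⌊d⌋₊)) ∧
    (∀ (n j : ℕ), 3 ≤ n → ∀ (f a : ℝ → ℝ) (d B C : ℝ), ContDiff ℝ 2 f → f 0 = 0 →
      deriv f 0 = 1 → (∀ r, 0 < r → 0 < f r) → (∀ r, 0 ≤ r → deriv (deriv f) r ≤ 0) →
      ContDiffOn ℝ 2 a (Set.Ioi 0) →
      (∀ r, 0 < r → deriv (deriv a) r + ((n:ℝ) - 1) * (deriv f r / f r) * deriv a r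
        - (j:ℝ) * (j + n - 2) * a r / (f r) ^ 2 = 0) →
      (∀ r, 0 < r → r ≤ 1 → |a r| ≤ B) →
      (∀ r, 1 ≤ r → |a r| ≤ C * r ^ d) →
      (j : ℝ) ≤ d ∨ ∀ r, 0 < r → a r = 0) :=
  ⟨fun n hn f hf hf0 hf1 hfpos hfconc d hd m u hu hharm hgrow hli =>
      Vale.Agent.H60.Rot.yau_rot n hn f hf hf0 hf1 hfpos hfconc d hd m u hu hharm hgrow hli,
    fun n j hn f a d B C hf hf0 hf1 hfpos hfconc ha hode hbdd hgrow =>
      Vale.Agent.H60.Radial.mode_growth n j hn f a d B C hf hf0 hf1 hfpos hfconc ha hode hbdd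
        hgrow⟩

end Vale.Agent.Results.P225.C_RotSymDimensionAndModes
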